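import Vale.Agent.Helper16.KTV.Bridge
import Vale.Agent.Helper16.KTVG.Plan

/-!
Slot heat baths for the switch chain on simple graphs with a prescribed degree vector
(problem P335, general graphs).

* `KTV.G23.cexpL_comm_of_mix`: an abstract criterion for two conditional expectations
  `cexpL Ω lab`, `cexpL Ω lab2` to commute (a mixing map on the fibres).
* `KTV.G23.slot_comm`: on the graphs with degree vector `d`, the conditional expectations
  given the slots outside `R` and given the slots outside `R2` commute when `R`, `R2` are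
  disjoint sets of slots (unordered pairs of vertices).
* `KTV.G23.slot_tower`: absorption for nested slot sets.
-/

namespace KTV

namespace G23

open Finset

section Abstract

variable {X Λ Λ2 : Type*} [DecidableEq Λ] [DecidableEq Λ2]

omit [DecidableEq Λ] in
/-- Reindexing of the second fibre through a point `u` of the first fibre of `x`
(local version: everything happens inside a set `P` that is a union of classes). -/
theorem sum_fibre_mix_on (Ω : Finset X) (lab : X → Λ) (lab2 : X → Λ2) (mix : X → X → X)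
    (P : X → Prop) (hP : ∀ x ∈ Ω, ∀ y ∈ Ω, lab y = lab x → P x → P y)
    (h1 : ∀ x ∈ Ω, P x → ∀ u ∈ Ω, ∀ w ∈ Ω, lab u = lab x → lab2 w = lab2 x →
      mix u w ∈ Ω ∧ lab (mix u w) = lab w ∧ lab2 (mix u w) = lab2 u)
    (h2 : ∀ x ∈ Ω, P x → ∀ u ∈ Ω, ∀ w ∈ Ω, lab u = lab x → lab2 w = lab2 x →
      mix x (mix u w) = w ∧ mix (mix u w) x = u)
    {x u : X} (hx : x ∈ Ω) (hPx : P x) (hu : u ∈ Ω) (hux : lab u = lab x) (g : X → ℝ) :
    ∑ v ∈ Ω.filter (fun v => lab2 v = lab2 u), g v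
      = ∑ w ∈ Ω.filter (fun w => lab2 w = lab2 x), g (mix u w) := by
  have hPu : P u := hP x hx u hu hux hPx
  symm
  apply Finset.sum_nbij' (fun w => mix u w) (fun v => mix x v)
  · intro w hw
    rw [Finset.mem_filter] at hw ⊢
    have h := h1 x hx hPx u hu w hw.1 hux hw.2
    exact ⟨h.1, h.2.2⟩
  · intro v hv
    rw [Finset.mem_filter] at hv ⊢
    have h := h1 u hu hPu x hx v hv.1 hux.symm hv.2
    exact ⟨h.1, h.2.2⟩
  · intro w hw
    rw [Finset.mem_filter] at hw
    exact (h2 x hx hPx u hu w hw.1 hux hw.2).1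
  · intro v hv
    rw [Finset.mem_filter] at hv
    exact (h2 u hu hPu x hx v hv.1 hux.symm hv.2).1
  · intro w _
    rfl

omit [DecidableEq Λ2] in
/-- Reindexing of the first fibre through a point `w` of the second fibre of `x`
(local version). -/
theorem sum_fibre_mix2_on (Ω : Finset X) (lab : X → Λ) (lab2 : X → Λ2) (mix : X → X → X)
    (P : X → Prop) (hP2 : ∀ x ∈ Ω, ∀ y ∈ Ω, lab2 y = lab2 x → P x → P y)
    (h1 : ∀ x ∈ Ω, P x → ∀ u ∈ Ω, ∀ w ∈ Ω, lab u = lab x → lab2 w = lab2 x →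
      mix u w ∈ Ω ∧ lab (mix u w) = lab w ∧ lab2 (mix u w) = lab2 u)
    (h2 : ∀ x ∈ Ω, P x → ∀ u ∈ Ω, ∀ w ∈ Ω, lab u = lab x → lab2 w = lab2 x →
      mix x (mix u w) = w ∧ mix (mix u w) x = u)
    {x w : X} (hx : x ∈ Ω) (hPx : P x) (hw : w ∈ Ω) (hwx : lab2 w = lab2 x) (g : X → ℝ) :
    ∑ v ∈ Ω.filter (fun v => lab v = lab w), g v
      = ∑ u ∈ Ω.filter (fun u => lab u = lab x), g (mix u w) := by
  have hPw : P w := hP2 x hx w hw hwx hPx
  symm
  apply Finset.sum_nbij' (fun u => mix u w) (fun v => mix v x)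
  · intro u hu
    rw [Finset.mem_filter] at hu ⊢
    have h := h1 x hx hPx u hu.1 w hw hu.2 hwx
    exact ⟨h.1, h.2.1⟩
  · intro v hv
    rw [Finset.mem_filter] at hv ⊢
    have h := h1 w hw hPw v hv.1 x hx hv.2 hwx.symm
    exact ⟨h.1, h.2.1⟩
  · intro u hu
    rw [Finset.mem_filter] at hu
    exact (h2 x hx hPx u hu.1 w hw hu.2 hwx).2
  · intro v hv
    rw [Finset.mem_filter] at hv
    exact (h2 w hw hPw v hv.1 x hx hv.2 hwx.symm).2
  · intro u _
    rfl

/-- Local commutation criterion.  Let `P` be a set of points that is a union of classes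
of both labels.  If on `P` there is a mixing map on the fibres (`mix u w` lies in the
second fibre of `u` and in the first fibre of `w`, and `x` together with `mix u w`
recovers `u` and `w`), then the two conditional expectations commute at the points
of `P`. -/
theorem cexpL_comm_of_mix_on (Ω : Finset X) (lab : X → Λ) (lab2 : X → Λ2) (mix : X → X → X)
    (P : X → Prop) (hP : ∀ x ∈ Ω, ∀ y ∈ Ω, lab y = lab x → P x → P y)
    (hP2 : ∀ x ∈ Ω, ∀ y ∈ Ω, lab2 y = lab2 x → P x → P y)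
    (h1 : ∀ x ∈ Ω, P x → ∀ u ∈ Ω, ∀ w ∈ Ω, lab u = lab x → lab2 w = lab2 x →
      mix u w ∈ Ω ∧ lab (mix u w) = lab w ∧ lab2 (mix u w) = lab2 u)
    (h2 : ∀ x ∈ Ω, P x → ∀ u ∈ Ω, ∀ w ∈ Ω, lab u = lab x → lab2 w = lab2 x →
      mix x (mix u w) = w ∧ mix (mix u w) x = u)
    (f : X → ℝ) (x : X) (hx : x ∈ Ω) (hPx : P x) :
    cexpL Ω lab (cexpL Ω lab2 f) x = cexpL Ω lab2 (cexpL Ω lab f) x := by
  have e1 : cexpL Ω lab (cexpL Ω lab2 f) x =
      (∑ u ∈ Ω.filter (fun u => lab u = lab x), ∑ w ∈ Ω.filter (fun w => lab2 w = lab2 x),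
        f (mix u w)) /
        (((Ω.filter (fun w => lab2 w = lab2 x)).card : ℝ) *
          ((Ω.filter (fun u => lab u = lab x)).card : ℝ)) := by
    have h : ∀ u ∈ Ω.filter (fun u => lab u = lab x), cexpL Ω lab2 f u =
        (∑ w ∈ Ω.filter (fun w => lab2 w = lab2 x), f (mix u w)) /
          ((Ω.filter (fun w => lab2 w = lab2 x)).card : ℝ) := by
      intro u hu
      rw [Finset.mem_filter] at hu
      have hc := sum_fibre_mix_on Ω lab lab2 mix P hP h1 h2 hx hPx hu.1 hu.2 (fun _ => (1 : ℝ))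
      simp only [Finset.sum_const, nsmul_eq_mul, mul_one] at hc
      rw [cexpL_eq, sum_fibre_mix_on Ω lab lab2 mix P hP h1 h2 hx hPx hu.1 hu.2 f, hc]
    rw [cexpL_eq, Finset.sum_congr rfl h, ← Finset.sum_div, div_div]
  have e2 : cexpL Ω lab2 (cexpL Ω lab f) x =
      (∑ w ∈ Ω.filter (fun w => lab2 w = lab2 x), ∑ u ∈ Ω.filter (fun u => lab u = lab x),
        f (mix u w)) /
        (((Ω.filter (fun u => lab u = lab x)).card : ℝ) *
          ((Ω.filter (fun w => lab2 w = lab2 x)).card : ℝ)) := by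
    have h : ∀ w ∈ Ω.filter (fun w => lab2 w = lab2 x), cexpL Ω lab f w =
        (∑ u ∈ Ω.filter (fun u => lab u = lab x), f (mix u w)) /
          ((Ω.filter (fun u => lab u = lab x)).card : ℝ) := by
      intro w hw
      rw [Finset.mem_filter] at hw
      have hc := sum_fibre_mix2_on Ω lab lab2 mix P hP2 h1 h2 hx hPx hw.1 hw.2
        (fun _ => (1 : ℝ))
      simp only [Finset.sum_const, nsmul_eq_mul, mul_one] at hc
      rw [cexpL_eq, sum_fibre_mix2_on Ω lab lab2 mix P hP2 h1 h2 hx hPx hw.1 hw.2 f, hc]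
    rw [cexpL_eq, Finset.sum_congr rfl h, ← Finset.sum_div, div_div]
  rw [e1, e2, Finset.sum_comm, mul_comm]

/-- Two conditional expectations commute as soon as there is a mixing map on the fibres:
`mix u w` lies in the second fibre of `u` and in the first fibre of `w`, and `x` together
with `mix u w` recovers `u` and `w`. -/
theorem cexpL_comm_of_mix (Ω : Finset X) (lab : X → Λ) (lab2 : X → Λ2) (mix : X → X → X)
    (h1 : ∀ x ∈ Ω, ∀ u ∈ Ω, ∀ w ∈ Ω, lab u = lab x → lab2 w = lab2 x →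
      mix u w ∈ Ω ∧ lab (mix u w) = lab w ∧ lab2 (mix u w) = lab2 u)
    (h2 : ∀ x ∈ Ω, ∀ u ∈ Ω, ∀ w ∈ Ω, lab u = lab x → lab2 w = lab2 x →
      mix x (mix u w) = w ∧ mix (mix u w) x = u)
    (f : X → ℝ) (x : X) (hx : x ∈ Ω) :
    cexpL Ω lab (cexpL Ω lab2 f) x = cexpL Ω lab2 (cexpL Ω lab f) x :=
  cexpL_comm_of_mix_on Ω lab lab2 mix (fun _ => True) (fun _ _ _ _ _ _ => trivial)
    (fun _ _ _ _ _ _ => trivial) (fun x hx _ => h1 x hx) (fun x hx _ => h2 x hx) f x hx trivial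

end Abstract

section Graphs

open Classical

variable {n : ℕ}

theorem mem_gOm {d : Fin n → ℕ} {G : SimpleGraph (Fin n)} :
    G ∈ KTVG.gOmega n d ↔ ∀ i, G.degree i = d i := by
  unfold KTVG.gOmega
  rw [Finset.mem_filter]
  exact ⟨fun h => h.2, fun h => ⟨Finset.mem_univ _, h⟩⟩

/-- `G` and `G2` have the same edges among the slots (unordered pairs) outside `R`. -/
def AgreeOff (R : Set (Sym2 (Fin n))) (G G2 : SimpleGraph (Fin n)) : Prop :=
  ∀ s, s ∉ R → (s ∈ G.edgeSet ↔ s ∈ G2.edgeSet)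

theorem AgreeOff.symm {R : Set (Sym2 (Fin n))} {G G2 : SimpleGraph (Fin n)}
    (h : AgreeOff R G G2) : AgreeOff R G2 G := fun s hs => (h s hs).symm

theorem AgreeOff.mono {R R2 : Set (Sym2 (Fin n))} (hR : R ⊆ R2) {G G2 : SimpleGraph (Fin n)}
    (h : AgreeOff R G G2) : AgreeOff R2 G G2 := fun s hs => h s (fun hs' => hs (hR hs'))

/-- The graph with the slots of `R` taken from `u` and all other slots taken from `w`. -/
def mixG (R : Set (Sym2 (Fin n))) (u w : SimpleGraph (Fin n)) : SimpleGraph (Fin n) :=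
  SimpleGraph.fromEdgeSet {s | (s ∈ R ∧ s ∈ u.edgeSet) ∨ (s ∉ R ∧ s ∈ w.edgeSet)}

theorem mem_edgeSet_mixG (R : Set (Sym2 (Fin n))) (u w : SimpleGraph (Fin n))
    (s : Sym2 (Fin n)) :
    s ∈ (mixG R u w).edgeSet ↔ (s ∈ R ∧ s ∈ u.edgeSet) ∨ (s ∉ R ∧ s ∈ w.edgeSet) := by
  unfold mixG
  rw [SimpleGraph.edgeSet_fromEdgeSet]
  constructor
  · intro h
    exact h.1
  · intro h
    refine ⟨h, ?_⟩
    rcases h with h | h
    · exact u.not_isDiag_of_mem_edgeSet h.2
    · exact w.not_isDiag_of_mem_edgeSet h.2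

theorem mixG_of_mem {R : Set (Sym2 (Fin n))} (u w : SimpleGraph (Fin n)) {s : Sym2 (Fin n)}
    (hs : s ∈ R) : s ∈ (mixG R u w).edgeSet ↔ s ∈ u.edgeSet := by
  rw [mem_edgeSet_mixG]
  constructor
  · rintro (h | h)
    · exact h.2
    · exact absurd hs h.1
  · intro h
    exact Or.inl ⟨hs, h⟩

theorem mixG_of_notMem {R : Set (Sym2 (Fin n))} (u w : SimpleGraph (Fin n))
    {s : Sym2 (Fin n)} (hs : s ∉ R) : s ∈ (mixG R u w).edgeSet ↔ s ∈ w.edgeSet := by
  rw [mem_edgeSet_mixG]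
  constructor
  · rintro (h | h)
    · exact absurd h.1 hs
    · exact h.2
  · intro h
    exact Or.inr ⟨hs, h⟩

/-- The number of edges of `G` at the vertex `i` among the slots of `R`. -/
noncomputable def pdeg (R : Set (Sym2 (Fin n))) (G : SimpleGraph (Fin n)) (i : Fin n) : ℕ :=
  ∑ y : Fin n, if s(i, y) ∈ R ∧ s(i, y) ∈ G.edgeSet then 1 else 0

theorem degree_eq_pdeg (R : Set (Sym2 (Fin n))) (G : SimpleGraph (Fin n)) (i : Fin n) :
    G.degree i = pdeg R G i + pdeg Rᶜ G i := by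
  have h0 : G.degree i = ∑ y : Fin n, if G.Adj i y then 1 else 0 := by
    rw [← SimpleGraph.card_neighborFinset_eq_degree, Finset.card_eq_sum_ones,
      ← Finset.sum_filter]
    apply Finset.sum_congr _ (fun _ _ => rfl)
    ext y
    simp
  rw [h0]
  unfold pdeg
  rw [← Finset.sum_add_distrib]
  apply Finset.sum_congr rfl
  intro y _
  have he : s(i, y) ∈ G.edgeSet ↔ G.Adj i y := SimpleGraph.mem_edgeSet G
  by_cases hA : G.Adj i y
  · by_cases hR : s(i, y) ∈ R
    · rw [if_pos hA, if_pos ⟨hR, he.mpr hA⟩, if_neg (fun h => h.1 hR)]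
    · rw [if_pos hA, if_neg (fun h => hR h.1), if_pos ⟨hR, he.mpr hA⟩]
  · rw [if_neg hA, if_neg (fun h => hA (he.mp h.2)), if_neg (fun h => hA (he.mp h.2))]

theorem pdeg_congr {R : Set (Sym2 (Fin n))} {G G2 : SimpleGraph (Fin n)}
    (h : ∀ s, s ∈ R → (s ∈ G.edgeSet ↔ s ∈ G2.edgeSet)) (i : Fin n) :
    pdeg R G i = pdeg R G2 i := by
  unfold pdeg
  apply Finset.sum_congr rfl
  intro y _
  by_cases hR : s(i, y) ∈ R
  · simp only [hR, true_and, h _ hR]
  · simp only [hR, false_and]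

/-- The mixed graph has the degree vector `d`. -/
theorem mixG_mem_gOm {d : Fin n → ℕ} {R : Set (Sym2 (Fin n))} {x u w : SimpleGraph (Fin n)}
    (hx : x ∈ KTVG.gOmega n d) (hu : u ∈ KTVG.gOmega n d) (hw : w ∈ KTVG.gOmega n d) (hux : AgreeOff R u x)
    (hwx : ∀ s, s ∈ R → (s ∈ w.edgeSet ↔ s ∈ x.edgeSet)) : mixG R u w ∈ KTVG.gOmega n d := by
  rw [mem_gOm] at hx hu hw ⊢
  intro i
  have h1 : pdeg R (mixG R u w) i = pdeg R u i :=
    pdeg_congr (fun s hs => mixG_of_mem u w hs) i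
  have h2 : pdeg Rᶜ (mixG R u w) i = pdeg Rᶜ w i :=
    pdeg_congr (fun s hs => mixG_of_notMem u w hs) i
  have h3 : pdeg Rᶜ u i = pdeg Rᶜ x i := pdeg_congr (fun s hs => hux s hs) i
  have h4 : pdeg R w i = pdeg R x i := pdeg_congr hwx i
  have e1 := degree_eq_pdeg R u i
  have e2 := degree_eq_pdeg R x i
  have e3 := degree_eq_pdeg R w i
  have e4 := degree_eq_pdeg R (mixG R u w) i
  have d1 := hx i
  have d2 := hu i
  have d3 := hw i
  omega

/-- On the graphs with degree vector `d`, the conditional expectations given the slots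
outside `R` and given the slots outside `R2` commute when `R` and `R2` are disjoint.
The labels are arbitrary maps whose kernels are the relations `AgreeOff R`, `AgreeOff R2`. -/
theorem slot_comm (d : Fin n → ℕ) {R R2 : Set (Sym2 (Fin n))} (hRR : Disjoint R R2)
    {Λ Λ2 : Type*} (lab : SimpleGraph (Fin n) → Λ) (lab2 : SimpleGraph (Fin n) → Λ2)
    (hlab : ∀ G ∈ KTVG.gOmega n d, ∀ G2 ∈ KTVG.gOmega n d, lab G = lab G2 ↔ AgreeOff R G G2)
    (hlab2 : ∀ G ∈ KTVG.gOmega n d, ∀ G2 ∈ KTVG.gOmega n d, lab2 G = lab2 G2 ↔ AgreeOff R2 G G2)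
    (f : SimpleGraph (Fin n) → ℝ) (G : SimpleGraph (Fin n)) (hG : G ∈ KTVG.gOmega n d) :
    cexpL (KTVG.gOmega n d) lab (cexpL (KTVG.gOmega n d) lab2 f) G
      = cexpL (KTVG.gOmega n d) lab2 (cexpL (KTVG.gOmega n d) lab f) G := by
  have hR : ∀ s, s ∈ R → s ∉ R2 := fun s hs hs' => Set.disjoint_left.mp hRR hs hs'
  have key : ∀ x ∈ KTVG.gOmega n d, ∀ u ∈ KTVG.gOmega n d, ∀ w ∈ KTVG.gOmega n d, lab u = lab x → lab2 w = lab2 x →
      mixG R u w ∈ KTVG.gOmega n d ∧ AgreeOff R u x ∧ AgreeOff R2 w x := by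
    intro x hx u hu w hw hux hwx
    have a1 : AgreeOff R u x := (hlab u hu x hx).mp hux
    have a2 : AgreeOff R2 w x := (hlab2 w hw x hx).mp hwx
    exact ⟨mixG_mem_gOm hx hu hw a1 (fun s hs => a2 s (hR s hs)), a1, a2⟩
  apply cexpL_comm_of_mix (KTVG.gOmega n d) lab lab2 (mixG R)
  · intro x hx u hu w hw hux hwx
    obtain ⟨hm, a1, a2⟩ := key x hx u hu w hw hux hwx
    refine ⟨hm, ?_, ?_⟩
    · rw [hlab _ hm w hw]
      intro s hs
      exact mixG_of_notMem u w hs
    · rw [hlab2 _ hm u hu]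
      intro s hs
      by_cases hsR : s ∈ R
      · exact mixG_of_mem u w hsR
      · rw [mixG_of_notMem u w hsR, a2 s hs, a1 s hsR]
  · intro x hx u hu w hw hux hwx
    obtain ⟨_, a1, a2⟩ := key x hx u hu w hw hux hwx
    constructor
    · apply SimpleGraph.edgeSet_inj.mp
      ext s
      by_cases hsR : s ∈ R
      · rw [mixG_of_mem _ _ hsR, a2 s (hR s hsR)]
      · rw [mixG_of_notMem _ _ hsR, mixG_of_notMem _ _ hsR]
    · apply SimpleGraph.edgeSet_inj.mp
      ext s
      by_cases hsR : s ∈ R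
      · rw [mixG_of_mem _ _ hsR, mixG_of_mem _ _ hsR]
      · rw [mixG_of_notMem _ _ hsR, a1 s hsR]
  · exact hG

/-- Absorption for nested slot sets: if `R ⊆ R2` then the conditional expectation given
the slots outside `R2` absorbs the one given the slots outside `R`, on either side. -/
theorem slot_tower (d : Fin n → ℕ) {R R2 : Set (Sym2 (Fin n))} (hRR : R ⊆ R2)
    {Λ Λ2 : Type*} (lab : SimpleGraph (Fin n) → Λ) (lab2 : SimpleGraph (Fin n) → Λ2)
    (hlab : ∀ G ∈ KTVG.gOmega n d, ∀ G2 ∈ KTVG.gOmega n d, lab G = lab G2 ↔ AgreeOff R G G2)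
    (hlab2 : ∀ G ∈ KTVG.gOmega n d, ∀ G2 ∈ KTVG.gOmega n d, lab2 G = lab2 G2 ↔ AgreeOff R2 G G2)
    (f : SimpleGraph (Fin n) → ℝ) (G : SimpleGraph (Fin n)) (hG : G ∈ KTVG.gOmega n d) :
    cexpL (KTVG.gOmega n d) lab2 (cexpL (KTVG.gOmega n d) lab f) G = cexpL (KTVG.gOmega n d) lab2 f G ∧
      cexpL (KTVG.gOmega n d) lab (cexpL (KTVG.gOmega n d) lab2 f) G = cexpL (KTVG.gOmega n d) lab2 f G := by
  have hfine : ∀ x ∈ KTVG.gOmega n d, ∀ y ∈ KTVG.gOmega n d, lab x = lab y → lab2 x = lab2 y := by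
    intro x hx y hy h
    rw [hlab2 x hx y hy]
    exact ((hlab x hx y hy).mp h).mono hRR
  exact ⟨cexpL_tower (KTVG.gOmega n d) lab lab2 hfine f hG, cexpL_tower' (KTVG.gOmega n d) lab lab2 hfine f hG⟩

/-- The set of slots described by a relation `R`: the unordered pairs both of whose
orientations lie in `R`. -/
def slotSet (R : Fin n → Fin n → Prop) : Set (Sym2 (Fin n)) :=
  {s | ∀ x y, s = s(x, y) → R x y}

/-- Two graphs carry the same label `KTVG.slotLab R` iff they agree off the slots of `R`. -/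
theorem slotLab_eq_iff (R : Fin n → Fin n → Prop) (G G2 : SimpleGraph (Fin n)) :
    KTVG.slotLab R G = KTVG.slotLab R G2 ↔ AgreeOff (slotSet R) G G2 := by
  constructor
  · intro h s hs
    have hs' : ∃ x y, s = s(x, y) ∧ ¬ R x y := by
      by_contra hc
      apply hs
      intro x y hxy
      by_contra hR
      exact hc ⟨x, y, hxy, hR⟩
    obtain ⟨x, y, rfl, hR⟩ := hs'
    have e : (¬ R x y ∧ G.Adj x y) = (¬ R x y ∧ G2.Adj x y) := congrFun (congrFun h x) y
    rw [SimpleGraph.mem_edgeSet, SimpleGraph.mem_edgeSet]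
    constructor
    · intro hA
      exact (e.mp ⟨hR, hA⟩).2
    · intro hA
      exact (e.mpr ⟨hR, hA⟩).2
  · intro h
    funext x y
    apply propext
    have key : ¬ R x y → (G.Adj x y ↔ G2.Adj x y) := by
      intro hR
      have := h s(x, y) (fun hs => hR (hs x y rfl))
      rw [SimpleGraph.mem_edgeSet, SimpleGraph.mem_edgeSet] at this
      exact this
    show (¬ R x y ∧ G.Adj x y) ↔ (¬ R x y ∧ G2.Adj x y)
    constructor
    · rintro ⟨hR, hA⟩
      exact ⟨hR, (key hR).mp hA⟩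
    · rintro ⟨hR, hA⟩
      exact ⟨hR, (key hR).mpr hA⟩

/-- Heat baths on disjoint slot sets commute (labels `KTVG.slotLab`). -/
theorem slotLab_comm (d : Fin n → ℕ) (R R2 : Fin n → Fin n → Prop)
    (hRR : ∀ x y, R x y → ¬ R2 x y) (f : SimpleGraph (Fin n) → ℝ) (G : SimpleGraph (Fin n))
    (hG : G ∈ KTVG.gOmega n d) :
    cexpL (KTVG.gOmega n d) (KTVG.slotLab R) (cexpL (KTVG.gOmega n d) (KTVG.slotLab R2) f) G
      = cexpL (KTVG.gOmega n d) (KTVG.slotLab R2)
          (cexpL (KTVG.gOmega n d) (KTVG.slotLab R) f) G := by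
  apply slot_comm d (R := slotSet R) (R2 := slotSet R2) _ _ _
    (fun G _ G2 _ => slotLab_eq_iff R G G2) (fun G _ G2 _ => slotLab_eq_iff R2 G G2) f G hG
  rw [Set.disjoint_left]
  intro s hs hs2
  induction s using Sym2.ind with
  | _ x y => exact hRR x y (hs x y rfl) (hs2 x y rfl)

/-- Absorption for nested slot sets (labels `KTVG.slotLab`): the heat bath on the larger
slot set absorbs the heat bath on the smaller one, on either side. -/
theorem slotLab_tower (d : Fin n → ℕ) (R R2 : Fin n → Fin n → Prop)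
    (hRR : ∀ x y, R x y → R2 x y) (f : SimpleGraph (Fin n) → ℝ) (G : SimpleGraph (Fin n))
    (hG : G ∈ KTVG.gOmega n d) :
    cexpL (KTVG.gOmega n d) (KTVG.slotLab R2) (cexpL (KTVG.gOmega n d) (KTVG.slotLab R) f) G
        = cexpL (KTVG.gOmega n d) (KTVG.slotLab R2) f G ∧
      cexpL (KTVG.gOmega n d) (KTVG.slotLab R) (cexpL (KTVG.gOmega n d) (KTVG.slotLab R2) f) G
        = cexpL (KTVG.gOmega n d) (KTVG.slotLab R2) f G := by
  apply slot_tower d (R := slotSet R) (R2 := slotSet R2) _ _ _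
    (fun G _ G2 _ => slotLab_eq_iff R G G2) (fun G _ G2 _ => slotLab_eq_iff R2 G G2) f G hG
  intro s hs x y hxy
  exact hRR x y (hs x y hxy)

/-! Matrix forms and the slot sets of a pair of disjoint vertex pairs. -/

/-- Matrix form of `slotLab_comm`. -/
theorem PM_slot_comm (d : Fin n → ℕ) (R R2 : Fin n → Fin n → Prop)
    (hRR : ∀ x y, R x y → ¬ R2 x y) :
    PM (KTVG.gOmega n d) (KTVG.slotLab R) * PM (KTVG.gOmega n d) (KTVG.slotLab R2)
      = PM (KTVG.gOmega n d) (KTVG.slotLab R2) * PM (KTVG.gOmega n d) (KTVG.slotLab R) :=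
  PM_comm (KTVG.gOmega n d) (KTVG.slotLab R) (KTVG.slotLab R2)
    (fun f x hx => slotLab_comm d R R2 hRR f x hx)

/-- Matrix form of `slotLab_tower`. -/
theorem PM_slot_absorb (d : Fin n → ℕ) (R R2 : Fin n → Fin n → Prop)
    (hRR : ∀ x y, R x y → R2 x y) :
    PM (KTVG.gOmega n d) (KTVG.slotLab R2) * PM (KTVG.gOmega n d) (KTVG.slotLab R)
        = PM (KTVG.gOmega n d) (KTVG.slotLab R2) ∧
      PM (KTVG.gOmega n d) (KTVG.slotLab R) * PM (KTVG.gOmega n d) (KTVG.slotLab R2)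
        = PM (KTVG.gOmega n d) (KTVG.slotLab R2) := by
  constructor
  · apply Matrix.mulVec_injective
    funext v
    rw [← Matrix.mulVec_mulVec, ← vec_ext0 (KTVG.gOmega n d) v, PM_mulVec, PM_mulVec, PM_mulVec]
    funext x
    exact (slotLab_tower d R R2 hRR _ x.1 x.2).1
  · apply Matrix.mulVec_injective
    funext v
    rw [← Matrix.mulVec_mulVec, ← vec_ext0 (KTVG.gOmega n d) v, PM_mulVec, PM_mulVec]
    funext x
    exact (slotLab_tower d R R2 hRR _ x.1 x.2).2

/-- The block slots between `{u,v}` and `{w,z}` and the slots between `{u,v}` and the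
outside vertices are disjoint. -/
theorem Rbet_block_out (u v w z : Fin n) (x y : Fin n) :
    KTVG.Rbet {u, v} {w, z} x y → ¬ KTVG.Rbet {u, v} (Finset.univ \ {u, v, w, z}) x y := by
  unfold KTVG.Rbet
  simp only [Finset.mem_insert, Finset.mem_singleton, Finset.mem_sdiff, Finset.mem_univ,
    true_and]
  tauto

/-- The block slots between `{u,v}` and `{w,z}` and the slots between `{w,z}` and the
outside vertices are disjoint. -/
theorem Rbet_block_out2 (u v w z : Fin n) (x y : Fin n) :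
    KTVG.Rbet {u, v} {w, z} x y → ¬ KTVG.Rbet {w, z} (Finset.univ \ {w, z, u, v}) x y := by
  unfold KTVG.Rbet
  simp only [Finset.mem_insert, Finset.mem_singleton, Finset.mem_sdiff, Finset.mem_univ,
    true_and]
  tauto

/-- The outside slots of `{u,v}` and of `{w,z}` are disjoint when the pairs are disjoint. -/
theorem Rbet_out_out {u v w z : Fin n} (huw : u ≠ w) (huz : u ≠ z) (hvw : v ≠ w) (hvz : v ≠ z)
    (x y : Fin n) :
    KTVG.Rbet {u, v} (Finset.univ \ {u, v, w, z}) x y →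
      ¬ KTVG.Rbet {w, z} (Finset.univ \ {w, z, u, v}) x y := by
  unfold KTVG.Rbet
  simp only [Finset.mem_insert, Finset.mem_singleton, Finset.mem_sdiff, Finset.mem_univ,
    true_and]
  rintro (⟨h1, h2⟩ | ⟨h1, h2⟩) (⟨h3, h4⟩ | ⟨h3, h4⟩)
  · rcases h1 with rfl | rfl <;> rcases h3 with h | h
    · exact huw h
    · exact huz h
    · exact hvw h
    · exact hvz h
  · tauto
  · tauto
  · rcases h2 with rfl | rfl <;> rcases h4 with h | h
    · exact huw h
    · exact huz h
    · exact hvw h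
    · exact hvz h

/-- The slots meeting `{u,v}` and the outside slots of `{w,z}` are disjoint when the pairs
are disjoint. -/
theorem Rinc_out {u v w z : Fin n} (huw : u ≠ w) (huz : u ≠ z) (hvw : v ≠ w) (hvz : v ≠ z)
    (x y : Fin n) :
    KTVG.Rinc {u, v} x y → ¬ KTVG.Rbet {w, z} (Finset.univ \ {w, z, u, v}) x y := by
  unfold KTVG.Rbet KTVG.Rinc
  simp only [Finset.mem_insert, Finset.mem_singleton, Finset.mem_sdiff, Finset.mem_univ,
    true_and]
  rintro (h1 | h1) (⟨h3, h4⟩ | ⟨h3, h4⟩)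
  · rcases h1 with rfl | rfl <;> rcases h3 with h | h
    · exact huw h
    · exact huz h
    · exact hvw h
    · exact hvz h
  · tauto
  · tauto
  · rcases h1 with rfl | rfl <;> rcases h4 with h | h
    · exact huw h
    · exact huz h
    · exact hvw h
    · exact hvz h

/-- The block slots lie among the slots meeting `{u,v}`. -/
theorem Rbet_block_sub (u v w z : Fin n) (x y : Fin n) :
    KTVG.Rbet {u, v} {w, z} x y → KTVG.Rinc {u, v} x y := by
  unfold KTVG.Rbet KTVG.Rinc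
  tauto

/-- The block slots lie among the slots meeting `{w,z}`. -/
theorem Rbet_block_sub2 (u v w z : Fin n) (x y : Fin n) :
    KTVG.Rbet {u, v} {w, z} x y → KTVG.Rinc {w, z} x y := by
  unfold KTVG.Rbet KTVG.Rinc
  tauto

/-- The outside slots of `{u,v}` lie among the slots meeting `{u,v}`. -/
theorem Rbet_out_sub (u v w z : Fin n) (x y : Fin n) :
    KTVG.Rbet {u, v} (Finset.univ \ {u, v, w, z}) x y → KTVG.Rinc {u, v} x y := by
  unfold KTVG.Rbet KTVG.Rinc
  tauto

section PairFacts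

variable (d : Fin n → ℕ) (u v w z : Fin n)

/-- `F_B` and `F_t` commute. -/
theorem PM_labB_labT :
    PM (KTVG.gOmega n d) (KTVG.labB u v w z) * PM (KTVG.gOmega n d) (KTVG.labT u v w z)
      = PM (KTVG.gOmega n d) (KTVG.labT u v w z) * PM (KTVG.gOmega n d) (KTVG.labB u v w z) :=
  PM_slot_comm d _ _ (Rbet_block_out u v w z)

/-- `F_B` and `F_t'` commute. -/
theorem PM_labB_labT2 :
    PM (KTVG.gOmega n d) (KTVG.labB u v w z) * PM (KTVG.gOmega n d) (KTVG.labT w z u v)
      = PM (KTVG.gOmega n d) (KTVG.labT w z u v) * PM (KTVG.gOmega n d) (KTVG.labB u v w z) :=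
  PM_slot_comm d _ _ (Rbet_block_out2 u v w z)

/-- `F_t` and `F_t'` commute. -/
theorem PM_labT_labT2 (huw : u ≠ w) (huz : u ≠ z) (hvw : v ≠ w) (hvz : v ≠ z) :
    PM (KTVG.gOmega n d) (KTVG.labT u v w z) * PM (KTVG.gOmega n d) (KTVG.labT w z u v)
      = PM (KTVG.gOmega n d) (KTVG.labT w z u v) * PM (KTVG.gOmega n d) (KTVG.labT u v w z) :=
  PM_slot_comm d _ _ (Rbet_out_out huw huz hvw hvz)

/-- `F_e` and `F_t'` commute. -/
theorem PM_labP_labT2 (huw : u ≠ w) (huz : u ≠ z) (hvw : v ≠ w) (hvz : v ≠ z) :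
    PM (KTVG.gOmega n d) (KTVG.labP u v) * PM (KTVG.gOmega n d) (KTVG.labT w z u v)
      = PM (KTVG.gOmega n d) (KTVG.labT w z u v) * PM (KTVG.gOmega n d) (KTVG.labP u v) :=
  PM_slot_comm d _ _ (Rinc_out huw huz hvw hvz)

/-- `F_e` absorbs `F_B`. -/
theorem PM_labP_labB :
    PM (KTVG.gOmega n d) (KTVG.labP u v) * PM (KTVG.gOmega n d) (KTVG.labB u v w z)
        = PM (KTVG.gOmega n d) (KTVG.labP u v) ∧
      PM (KTVG.gOmega n d) (KTVG.labB u v w z) * PM (KTVG.gOmega n d) (KTVG.labP u v)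
        = PM (KTVG.gOmega n d) (KTVG.labP u v) :=
  PM_slot_absorb d _ _ (Rbet_block_sub u v w z)

/-- `F_e'` absorbs `F_B`. -/
theorem PM_labP2_labB :
    PM (KTVG.gOmega n d) (KTVG.labP w z) * PM (KTVG.gOmega n d) (KTVG.labB u v w z)
        = PM (KTVG.gOmega n d) (KTVG.labP w z) ∧
      PM (KTVG.gOmega n d) (KTVG.labB u v w z) * PM (KTVG.gOmega n d) (KTVG.labP w z)
        = PM (KTVG.gOmega n d) (KTVG.labP w z) :=
  PM_slot_absorb d _ _ (Rbet_block_sub2 u v w z)

/-- `F_e` absorbs `F_t`. -/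
theorem PM_labP_labT :
    PM (KTVG.gOmega n d) (KTVG.labP u v) * PM (KTVG.gOmega n d) (KTVG.labT u v w z)
        = PM (KTVG.gOmega n d) (KTVG.labP u v) ∧
      PM (KTVG.gOmega n d) (KTVG.labT u v w z) * PM (KTVG.gOmega n d) (KTVG.labP u v)
        = PM (KTVG.gOmega n d) (KTVG.labP u v) :=
  PM_slot_absorb d _ _ (Rbet_out_sub u v w z)

end PairFacts

/-- Module M1 of the plan: heat baths on disjoint slot sets commute. -/
theorem slotCommStmt (d : Fin n → ℕ) : KTVG.SlotCommStmt n d :=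
  fun R R2 _ _ h f G hG => slotLab_comm d R R2 (fun x y hR hR2 => h x y ⟨hR, hR2⟩) f G hG

end Graphs

end G23

end KTV
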