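import Vale.Agent.Helper23.KTVG.Slots

/-!
Problem P335, general graphs: on the graphs with an odd number of edges between two
disjoint vertex pairs `{u,v}`, `{w,z}`, the two pair heat baths commute
(`KTVG.OddStmt`).  The proof uses the rectangle graph `rect u v w z a b`: the slots at
`u`, `v` outside the block are taken from `a`, the other slots outside the block from `b`,
and the block is the unique `2 x 2` table with the row sums of `a` and the column sums
of `b`.
-/

namespace KTV

namespace G23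

open Finset

open Classical

variable {n : ℕ}

/-- The degree is the sum of the adjacency indicators. -/
theorem degree_eq_sum_adjN (G : SimpleGraph (Fin n)) (i : Fin n) :
    G.degree i = ∑ y : Fin n, KTVG.adjN G i y := by
  unfold KTVG.adjN
  rw [← SimpleGraph.card_neighborFinset_eq_degree, Finset.card_eq_sum_ones,
    ← Finset.sum_filter]
  apply Finset.sum_congr _ (fun _ _ => rfl)
  ext y
  simp

theorem adjN_comm (G : SimpleGraph (Fin n)) (x y : Fin n) :
    KTVG.adjN G x y = KTVG.adjN G y x := by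
  unfold KTVG.adjN
  by_cases h : G.Adj x y
  · rw [if_pos h, if_pos h.symm]
  · rw [if_neg h, if_neg (fun h' => h h'.symm)]

theorem adjN_le_one (G : SimpleGraph (Fin n)) (x y : Fin n) : KTVG.adjN G x y ≤ 1 := by
  unfold KTVG.adjN
  split_ifs <;> omega

theorem adjN_eq_one_iff (G : SimpleGraph (Fin n)) (x y : Fin n) :
    KTVG.adjN G x y = 1 ↔ G.Adj x y := by
  unfold KTVG.adjN
  split_ifs with h
  · simp [h]
  · simp [h]

theorem adjN_congr {G H : SimpleGraph (Fin n)} {x y : Fin n} (h : G.Adj x y ↔ H.Adj x y) :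
    KTVG.adjN G x y = KTVG.adjN H x y := by
  unfold KTVG.adjN
  by_cases hG : G.Adj x y
  · rw [if_pos hG, if_pos (h.mp hG)]
  · rw [if_neg hG, if_neg (fun h' => hG (h.mpr h'))]

theorem adjN_eq_ite {H : SimpleGraph (Fin n)} {x y : Fin n} {P : Prop}
    (h : H.Adj x y ↔ P) : KTVG.adjN H x y = if P then 1 else 0 := by
  unfold KTVG.adjN
  by_cases hA : H.Adj x y
  · rw [if_pos hA, if_pos (h.mp hA)]
  · rw [if_neg hA, if_neg (fun h' => hA (h.mpr h'))]

/-- Splitting two points off a sum over all vertices. -/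
theorem sum_split2 {u v : Fin n} (huv : u ≠ v) (F : Fin n → ℕ) :
    ∑ y, F y = F u + F v + ∑ y ∈ (Finset.univ.erase u).erase v, F y := by
  rw [← Finset.add_sum_erase Finset.univ F (Finset.mem_univ u),
    ← Finset.add_sum_erase (Finset.univ.erase u) F
      (Finset.mem_erase.mpr ⟨huv.symm, Finset.mem_univ v⟩), add_assoc]

theorem mem_erase2 {u v y : Fin n} :
    y ∈ (Finset.univ.erase u).erase v ↔ y ≠ u ∧ y ≠ v := by
  rw [Finset.mem_erase, Finset.mem_erase]
  constructor
  · rintro ⟨h1, h2, _⟩
    exact ⟨h2, h1⟩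
  · rintro ⟨h1, h2⟩
    exact ⟨h2, h1, Finset.mem_univ _⟩

/-- Two graphs carry the same pair label iff they agree on the slots avoiding the pair. -/
theorem labP_eq_iff (u v : Fin n) (a G : SimpleGraph (Fin n)) :
    KTVG.labP u v a = KTVG.labP u v G ↔
      ∀ x y, x ≠ u → x ≠ v → y ≠ u → y ≠ v → (a.Adj x y ↔ G.Adj x y) := by
  unfold KTVG.labP KTVG.labOffV
  rw [KTVG.slotLab_eq_iff]
  unfold KTVG.Rinc
  simp only [Finset.mem_insert, Finset.mem_singleton]
  constructor
  · intro h x y h1 h2 h3 h4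
    exact h x y (by tauto)
  · intro h x y hxy
    exact h x y (by tauto) (by tauto) (by tauto) (by tauto)

/-- Inside a fibre of the pair `{u,v}` every other vertex keeps its number of
neighbours in `{u,v}`. -/
theorem pairsum_of_labP {d : Fin n → ℕ} {u v : Fin n} (huv : u ≠ v)
    {a G : SimpleGraph (Fin n)} (ha : a ∈ KTVG.gOmega n d) (hG : G ∈ KTVG.gOmega n d)
    (h : KTVG.labP u v a = KTVG.labP u v G) {j : Fin n} (hju : j ≠ u) (hjv : j ≠ v) :
    KTVG.adjN a j u + KTVG.adjN a j v = KTVG.adjN G j u + KTVG.adjN G j v := by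
  have h' := (labP_eq_iff u v a G).mp h
  have e1 := degree_eq_sum_adjN a j
  have e2 := degree_eq_sum_adjN G j
  rw [sum_split2 huv] at e1 e2
  have e3 : ∑ y ∈ (Finset.univ.erase u).erase v, KTVG.adjN a j y
      = ∑ y ∈ (Finset.univ.erase u).erase v, KTVG.adjN G j y := by
    apply Finset.sum_congr rfl
    intro y hy
    rw [mem_erase2] at hy
    exact adjN_congr (h' j y hju hjv hy.1 hy.2)
  have d1 := (KTVG.mem_gOmega.mp ha) j
  have d2 := (KTVG.mem_gOmega.mp hG) j
  omega

/-! The block table determined by its margins. -/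

/-- Entry of the `2 x 2` zero-one table with odd total `m`, in a row with sum `r` and a
column with sum `c`. -/
def blkP (m r c : ℕ) : Prop := m + 2 < 2 * (r + c)

/-- The two entries of a row of the table add up to the row sum. -/
theorem blk_row {m r1 r2 c1 c2 : ℕ} (hr : r1 + r2 = m) (hc : c1 + c2 = m) (hodd : m % 2 = 1)
    (h1 : r1 ≤ 2) (h2 : r2 ≤ 2) (h3 : c1 ≤ 2) (h4 : c2 ≤ 2) :
    (if blkP m r1 c1 then 1 else 0) + (if blkP m r1 c2 then 1 else 0) = r1 := by
  unfold blkP
  split_ifs <;> omega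

/-- An odd zero-one table is given by `blkP` of its margins. -/
theorem blk_unique {e11 e12 e21 e22 : ℕ} (h11 : e11 ≤ 1) (h12 : e12 ≤ 1) (h21 : e21 ≤ 1)
    (h22 : e22 ≤ 1) (hodd : (e11 + e12 + e21 + e22) % 2 = 1) :
    (e11 = 1 ↔ blkP (e11 + e12 + e21 + e22) (e11 + e12) (e11 + e21)) := by
  unfold blkP
  omega

/-! The rectangle graph. -/

/-- The relation underlying the rectangle graph. -/
def rectRel (u v w z : Fin n) (a b : SimpleGraph (Fin n)) (x y : Fin n) : Prop :=
  if (x = u ∨ x = v) ∧ (y = w ∨ y = z) then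
    blkP (KTVG.yB u v w z a) (KTVG.adjN a x w + KTVG.adjN a x z)
      (KTVG.adjN b u y + KTVG.adjN b v y)
  else if (x = w ∨ x = z) ∧ (y = u ∨ y = v) then
    blkP (KTVG.yB u v w z a) (KTVG.adjN a y w + KTVG.adjN a y z)
      (KTVG.adjN b u x + KTVG.adjN b v x)
  else if (x = u ∨ x = v) ∨ (y = u ∨ y = v) then a.Adj x y
  else b.Adj x y

/-- The rectangle graph of `a` and `b`: the slots at `u`, `v` outside the block from `a`,
the other slots outside the block from `b`, and the block from the row sums of `a` and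
the column sums of `b`. -/
def rect (u v w z : Fin n) (a b : SimpleGraph (Fin n)) : SimpleGraph (Fin n) :=
  SimpleGraph.fromRel (rectRel u v w z a b)

section Rect

variable {u v w z : Fin n} (hD : KTVG.D4 u v w z) (a b : SimpleGraph (Fin n))

include hD

/-- Block slots of the rectangle graph. -/
theorem rect_block {x y : Fin n} (hx : x = u ∨ x = v) (hy : y = w ∨ y = z) :
    (rect u v w z a b).Adj x y ↔
      blkP (KTVG.yB u v w z a) (KTVG.adjN a x w + KTVG.adjN a x z)
        (KTVG.adjN b u y + KTVG.adjN b v y) := by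
  obtain ⟨huv, huw, huz, hvw, hvz, hwz⟩ := hD
  have hxy : x ≠ y := by
    rcases hx with rfl | rfl <;> rcases hy with rfl | rfl <;> assumption
  have hny : ¬ ((y = u ∨ y = v) ∧ (x = w ∨ x = z)) := by
    rintro ⟨h, _⟩
    rcases h with rfl | rfl <;> rcases hy with h | h
    · exact huw h
    · exact huz h
    · exact hvw h
    · exact hvz h
  unfold rect
  rw [SimpleGraph.fromRel_adj]
  have e1 : rectRel u v w z a b x y = blkP (KTVG.yB u v w z a)
      (KTVG.adjN a x w + KTVG.adjN a x z) (KTVG.adjN b u y + KTVG.adjN b v y) := by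
    unfold rectRel
    rw [if_pos ⟨hx, hy⟩]
  have e2 : rectRel u v w z a b y x = blkP (KTVG.yB u v w z a)
      (KTVG.adjN a x w + KTVG.adjN a x z) (KTVG.adjN b u y + KTVG.adjN b v y) := by
    unfold rectRel
    rw [if_neg hny, if_pos ⟨hy, hx⟩]
  rw [e1, e2]
  tauto

/-- Slots at `u`, `v` outside the block come from `a`. -/
theorem rect_a {x y : Fin n} (hx : x = u ∨ x = v) (hy : ¬ (y = w ∨ y = z)) :
    (rect u v w z a b).Adj x y ↔ a.Adj x y := by
  obtain ⟨huv, huw, huz, hvw, hvz, hwz⟩ := hD
  have hxwz : ¬ (x = w ∨ x = z) := by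
    rintro h
    rcases hx with rfl | rfl <;> rcases h with h | h
    · exact huw h
    · exact huz h
    · exact hvw h
    · exact hvz h
  unfold rect
  rw [SimpleGraph.fromRel_adj]
  have e1 : rectRel u v w z a b x y = a.Adj x y := by
    unfold rectRel
    rw [if_neg (fun h => hy h.2), if_neg (fun h => hxwz h.1), if_pos (Or.inl hx)]
  have e2 : rectRel u v w z a b y x = a.Adj y x := by
    unfold rectRel
    rw [if_neg (fun h => hxwz h.2), if_neg (fun h => hy h.1), if_pos (Or.inr hx)]
  rw [e1, e2]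
  constructor
  · rintro ⟨_, h | h⟩
    · exact h
    · exact h.symm
  · intro h
    exact ⟨a.ne_of_adj h, Or.inl h⟩

omit hD in
/-- Slots avoiding `u`, `v` come from `b`. -/
theorem rect_b {x y : Fin n} (hx : ¬ (x = u ∨ x = v)) (hy : ¬ (y = u ∨ y = v)) :
    (rect u v w z a b).Adj x y ↔ b.Adj x y := by
  unfold rect
  rw [SimpleGraph.fromRel_adj]
  have e1 : rectRel u v w z a b x y = b.Adj x y := by
    unfold rectRel
    rw [if_neg (fun h => hx h.1), if_neg (fun h => hy h.2), if_neg (fun h => h.elim hx hy)]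
  have e2 : rectRel u v w z a b y x = b.Adj y x := by
    unfold rectRel
    rw [if_neg (fun h => hy h.1), if_neg (fun h => hx h.2), if_neg (fun h => h.elim hy hx)]
  rw [e1, e2]
  constructor
  · rintro ⟨_, h | h⟩
    · exact h
    · exact h.symm
  · intro h
    exact ⟨b.ne_of_adj h, Or.inl h⟩

end Rect

/-- The two entries of a column of the table add up to the column sum. -/
theorem blk_col {m r1 r2 c1 c2 : ℕ} (hr : r1 + r2 = m) (hc : c1 + c2 = m) (hodd : m % 2 = 1)
    (h1 : r1 ≤ 2) (h2 : r2 ≤ 2) (h3 : c1 ≤ 2) (h4 : c2 ≤ 2) :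
    (if blkP m r1 c1 then 1 else 0) + (if blkP m r2 c1 then 1 else 0) = c1 := by
  unfold blkP
  split_ifs <;> omega

/-- An odd zero-one table is given by `blkP` of its margins (flexible form). -/
theorem blk_unique' {e f g h m r c : ℕ} (he : e ≤ 1) (hf : f ≤ 1) (hg : g ≤ 1) (hh : h ≤ 1)
    (hm : m = e + f + g + h) (hr : r = e + f) (hc : c = e + g) (hodd : m % 2 = 1) :
    (e = 1 ↔ blkP m r c) := by
  unfold blkP
  omega

section Margins

variable {d : Fin n → ℕ} {u v w z : Fin n} (hD : KTVG.D4 u v w z)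

include hD

/-- Inside a fibre of `{u,v}` the column sums of the block are constant. -/
theorem colS_of_labP {a G : SimpleGraph (Fin n)} (ha : a ∈ KTVG.gOmega n d)
    (hG : G ∈ KTVG.gOmega n d) (hab : KTVG.labP u v a = KTVG.labP u v G) :
    (KTVG.adjN a u w + KTVG.adjN a v w = KTVG.adjN G u w + KTVG.adjN G v w) ∧
      (KTVG.adjN a u z + KTVG.adjN a v z = KTVG.adjN G u z + KTVG.adjN G v z) := by
  obtain ⟨huv, huw, huz, hvw, hvz, hwz⟩ := hD
  have h1 := pairsum_of_labP huv ha hG hab (j := w) (Ne.symm huw) (Ne.symm hvw)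
  have h2 := pairsum_of_labP huv ha hG hab (j := z) (Ne.symm huz) (Ne.symm hvz)
  rw [adjN_comm a w u, adjN_comm a w v, adjN_comm G w u, adjN_comm G w v] at h1
  rw [adjN_comm a z u, adjN_comm a z v, adjN_comm G z u, adjN_comm G z v] at h2
  exact ⟨h1, h2⟩

/-- Inside a fibre of `{w,z}` the row sums of the block are constant. -/
theorem rowS_of_labP {b G : SimpleGraph (Fin n)} (hb : b ∈ KTVG.gOmega n d)
    (hG : G ∈ KTVG.gOmega n d) (hbb : KTVG.labP w z b = KTVG.labP w z G) :
    (KTVG.adjN b u w + KTVG.adjN b u z = KTVG.adjN G u w + KTVG.adjN G u z) ∧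
      (KTVG.adjN b v w + KTVG.adjN b v z = KTVG.adjN G v w + KTVG.adjN G v z) := by
  obtain ⟨huv, huw, huz, hvw, hvz, hwz⟩ := hD
  exact ⟨pairsum_of_labP hwz hb hG hbb (j := u) huw huz,
    pairsum_of_labP hwz hb hG hbb (j := v) hvw hvz⟩

theorem yB_of_labP_left {a G : SimpleGraph (Fin n)} (ha : a ∈ KTVG.gOmega n d)
    (hG : G ∈ KTVG.gOmega n d) (hab : KTVG.labP u v a = KTVG.labP u v G) :
    KTVG.yB u v w z a = KTVG.yB u v w z G := by
  have h := colS_of_labP hD ha hG hab
  unfold KTVG.yB
  omega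

theorem yB_of_labP_right {b G : SimpleGraph (Fin n)} (hb : b ∈ KTVG.gOmega n d)
    (hG : G ∈ KTVG.gOmega n d) (hbb : KTVG.labP w z b = KTVG.labP w z G) :
    KTVG.yB u v w z b = KTVG.yB u v w z G := by
  have h := rowS_of_labP hD hb hG hbb
  unfold KTVG.yB
  omega

omit hD in
/-- The block of a graph with an odd block total is given by `blkP` of its margins. -/
theorem block_iff (H : SimpleGraph (Fin n)) (hodd : KTVG.OddB u v w z H) {x y : Fin n}
    (hx : x = u ∨ x = v) (hy : y = w ∨ y = z) :
    H.Adj x y ↔ blkP (KTVG.yB u v w z H) (KTVG.adjN H x w + KTVG.adjN H x z)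
      (KTVG.adjN H u y + KTVG.adjN H v y) := by
  have hodd' : KTVG.yB u v w z H % 2 = 1 := Nat.odd_iff.mp hodd
  have b1 := adjN_le_one H u w
  have b2 := adjN_le_one H u z
  have b3 := adjN_le_one H v w
  have b4 := adjN_le_one H v z
  rw [← adjN_eq_one_iff]
  rcases hx with rfl | rfl <;> rcases hy with rfl | rfl
  · exact blk_unique' b1 b2 b3 b4 (by unfold KTVG.yB; omega) rfl rfl hodd'
  · exact blk_unique' b2 b1 b4 b3 (by unfold KTVG.yB; omega) (by omega) rfl hodd'
  · exact blk_unique' b3 b4 b1 b2 (by unfold KTVG.yB; omega) rfl (by omega) hodd'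
  · exact blk_unique' b4 b3 b2 b1 (by unfold KTVG.yB; omega) (by omega) (by omega) hodd'

/-- Uniqueness of the fourth corner: two graphs with an odd block total that lie in the
same fibre of `{u,v}` and in the same fibre of `{w,z}` are equal. -/
theorem eq_of_labP_labP {a b : SimpleGraph (Fin n)} (ha : a ∈ KTVG.gOmega n d)
    (hb : b ∈ KTVG.gOmega n d) (hodd : KTVG.OddB u v w z a)
    (h1 : KTVG.labP u v a = KTVG.labP u v b) (h2 : KTVG.labP w z a = KTVG.labP w z b) :
    a = b := by
  have hy : KTVG.yB u v w z a = KTVG.yB u v w z b := yB_of_labP_left hD ha hb h1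
  have hoddb : KTVG.OddB u v w z b := by
    unfold KTVG.OddB at hodd ⊢
    rw [← hy]
    exact hodd
  have hc := colS_of_labP hD ha hb h1
  have hr := rowS_of_labP hD ha hb h2
  have key : ∀ x y, (x = u ∨ x = v) → (y = w ∨ y = z) → (a.Adj x y ↔ b.Adj x y) := by
    intro x y hx hy'
    rw [block_iff a hodd hx hy', block_iff b hoddb hx hy', hy]
    have e1 : KTVG.adjN a x w + KTVG.adjN a x z = KTVG.adjN b x w + KTVG.adjN b x z := by
      rcases hx with rfl | rfl
      · exact hr.1
      · exact hr.2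
    have e2 : KTVG.adjN a u y + KTVG.adjN a v y = KTVG.adjN b u y + KTVG.adjN b v y := by
      rcases hy' with rfl | rfl
      · exact hc.1
      · exact hc.2
    rw [e1, e2]
  obtain ⟨huv, huw, huz, hvw, hvz, hwz⟩ := hD
  have g1 := (labP_eq_iff u v a b).mp h1
  have g2 := (labP_eq_iff w z a b).mp h2
  apply SimpleGraph.ext
  funext x y
  apply propext
  by_cases hx : x = u ∨ x = v
  · by_cases hy' : y = w ∨ y = z
    · exact key x y hx hy'
    · have hxw : x ≠ w := by rcases hx with rfl | rfl <;> assumption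
      have hxz : x ≠ z := by rcases hx with rfl | rfl <;> assumption
      exact g2 x y hxw hxz (fun h => hy' (Or.inl h)) (fun h => hy' (Or.inr h))
  · by_cases hy' : y = u ∨ y = v
    · by_cases hxw : x = w ∨ x = z
      · have := key y x hy' hxw
        rw [a.adj_comm, b.adj_comm]
        exact this
      · have hyw : y ≠ w := by rcases hy' with rfl | rfl <;> assumption
        have hyz : y ≠ z := by rcases hy' with rfl | rfl <;> assumption
        exact g2 x y (fun h => hxw (Or.inl h)) (fun h => hxw (Or.inr h)) hyw hyz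
    · exact g1 x y (fun h => hx (Or.inl h)) (fun h => hx (Or.inr h))
        (fun h => hy' (Or.inl h)) (fun h => hy' (Or.inr h))

end Margins

section Corner

variable {d : Fin n → ℕ} {u v w z : Fin n} (hD : KTVG.D4 u v w z)
  {G a b : SimpleGraph (Fin n)} (hG : G ∈ KTVG.gOmega n d) (ha : a ∈ KTVG.gOmega n d)
  (hb : b ∈ KTVG.gOmega n d) (hodd : KTVG.OddB u v w z G)
  (hab : KTVG.labP u v a = KTVG.labP u v G) (hbb : KTVG.labP w z b = KTVG.labP w z G)

include hD hG ha hb hodd hab hbb

/-- The margins of the block of the rectangle graph: the row sums of `a` and the column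
sums of `b`. -/
theorem rect_margins :
    (KTVG.adjN (rect u v w z a b) u w + KTVG.adjN (rect u v w z a b) u z
        = KTVG.adjN a u w + KTVG.adjN a u z) ∧
      (KTVG.adjN (rect u v w z a b) v w + KTVG.adjN (rect u v w z a b) v z
        = KTVG.adjN a v w + KTVG.adjN a v z) ∧
      (KTVG.adjN (rect u v w z a b) u w + KTVG.adjN (rect u v w z a b) v w
        = KTVG.adjN b u w + KTVG.adjN b v w) ∧
      (KTVG.adjN (rect u v w z a b) u z + KTVG.adjN (rect u v w z a b) v z
        = KTVG.adjN b u z + KTVG.adjN b v z) := by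
  have hya : KTVG.yB u v w z a = KTVG.yB u v w z G := yB_of_labP_left hD ha hG hab
  have hyb : KTVG.yB u v w z b = KTVG.yB u v w z G := yB_of_labP_right hD hb hG hbb
  have hodd' : KTVG.yB u v w z a % 2 = 1 := by
    rw [hya]
    exact Nat.odd_iff.mp hodd
  have hra : (KTVG.adjN a u w + KTVG.adjN a u z) + (KTVG.adjN a v w + KTVG.adjN a v z)
      = KTVG.yB u v w z a := by
    unfold KTVG.yB
    omega
  have hcb : (KTVG.adjN b u w + KTVG.adjN b v w) + (KTVG.adjN b u z + KTVG.adjN b v z)
      = KTVG.yB u v w z a := by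
    rw [hya, ← hyb]
    unfold KTVG.yB
    omega
  have hra' : (KTVG.adjN a v w + KTVG.adjN a v z) + (KTVG.adjN a u w + KTVG.adjN a u z)
      = KTVG.yB u v w z a := by omega
  have hcb' : (KTVG.adjN b u z + KTVG.adjN b v z) + (KTVG.adjN b u w + KTVG.adjN b v w)
      = KTVG.yB u v w z a := by omega
  have a1 := adjN_le_one a u w
  have a2 := adjN_le_one a u z
  have a3 := adjN_le_one a v w
  have a4 := adjN_le_one a v z
  have b1 := adjN_le_one b u w
  have b2 := adjN_le_one b u z
  have b3 := adjN_le_one b v w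
  have b4 := adjN_le_one b v z
  have e : ∀ x y, (x = u ∨ x = v) → (y = w ∨ y = z) →
      KTVG.adjN (rect u v w z a b) x y =
        if blkP (KTVG.yB u v w z a) (KTVG.adjN a x w + KTVG.adjN a x z)
          (KTVG.adjN b u y + KTVG.adjN b v y) then 1 else 0 := by
    intro x y hx hy
    exact adjN_eq_ite (rect_block hD a b hx hy)
  rw [e u w (Or.inl rfl) (Or.inl rfl), e u z (Or.inl rfl) (Or.inr rfl),
    e v w (Or.inr rfl) (Or.inl rfl), e v z (Or.inr rfl) (Or.inr rfl)]
  refine ⟨?_, ?_, ?_, ?_⟩
  · exact blk_row hra hcb hodd' (by omega) (by omega) (by omega) (by omega)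
  · exact blk_row hra' hcb hodd' (by omega) (by omega) (by omega) (by omega)
  · exact blk_col hra hcb hodd' (by omega) (by omega) (by omega) (by omega)
  · exact blk_col hra hcb' hodd' (by omega) (by omega) (by omega) (by omega)

/-- The rectangle graph has the degree vector `d`. -/
theorem rect_mem : rect u v w z a b ∈ KTVG.gOmega n d := by
  obtain ⟨m1, m2, m3, m4⟩ := rect_margins hD hG ha hb hodd hab hbb
  have hD' := hD
  obtain ⟨huv, huw, huz, hvw, hvz, hwz⟩ := hD'
  rw [KTVG.mem_gOmega]
  have dG := KTVG.mem_gOmega.mp hG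
  have da := KTVG.mem_gOmega.mp ha
  have db := KTVG.mem_gOmega.mp hb
  -- the slots at `u`, `v` outside the block
  have rowdeg : ∀ x, (x = u ∨ x = v) →
      KTVG.adjN (rect u v w z a b) x w + KTVG.adjN (rect u v w z a b) x z
        = KTVG.adjN a x w + KTVG.adjN a x z → (rect u v w z a b).degree x = d x := by
    intro x hx hm
    rw [degree_eq_sum_adjN, sum_split2 hwz, ← da x, degree_eq_sum_adjN a, sum_split2 hwz]
    have e3 : ∑ y ∈ (Finset.univ.erase w).erase z, KTVG.adjN (rect u v w z a b) x y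
        = ∑ y ∈ (Finset.univ.erase w).erase z, KTVG.adjN a x y := by
      apply Finset.sum_congr rfl
      intro y hy
      rw [mem_erase2] at hy
      exact adjN_congr (rect_a hD a b hx (fun h => h.elim hy.1 hy.2))
    omega
  -- the slots at `w`, `z` outside the block
  have coldeg : ∀ y, (y = w ∨ y = z) →
      KTVG.adjN (rect u v w z a b) u y + KTVG.adjN (rect u v w z a b) v y
        = KTVG.adjN b u y + KTVG.adjN b v y → (rect u v w z a b).degree y = d y := by
    intro y hy hm
    have hyu : ¬ (y = u ∨ y = v) := by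
      rintro h
      rcases hy with rfl | rfl <;> rcases h with h | h
      · exact huw h.symm
      · exact hvw h.symm
      · exact huz h.symm
      · exact hvz h.symm
    rw [degree_eq_sum_adjN, sum_split2 huv, ← db y, degree_eq_sum_adjN b, sum_split2 huv]
    have e3 : ∑ x ∈ (Finset.univ.erase u).erase v, KTVG.adjN (rect u v w z a b) y x
        = ∑ x ∈ (Finset.univ.erase u).erase v, KTVG.adjN b y x := by
      apply Finset.sum_congr rfl
      intro x hx
      rw [mem_erase2] at hx
      exact adjN_congr (rect_b a b hyu (fun h => h.elim hx.1 hx.2))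
    rw [adjN_comm (rect u v w z a b) y u, adjN_comm (rect u v w z a b) y v, adjN_comm b y u,
      adjN_comm b y v]
    omega
  intro i
  by_cases hiu : i = u
  · rw [hiu]
    exact rowdeg u (Or.inl rfl) m1
  by_cases hiv : i = v
  · rw [hiv]
    exact rowdeg v (Or.inr rfl) m2
  by_cases hiw : i = w
  · rw [hiw]
    exact coldeg w (Or.inl rfl) m3
  by_cases hiz : i = z
  · rw [hiz]
    exact coldeg z (Or.inr rfl) m4
  -- an outside vertex
  have hi : ¬ (i = u ∨ i = v) := fun h => h.elim hiu hiv
  have hiwz : ¬ (i = w ∨ i = z) := fun h => h.elim hiw hiz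
  have e1 : KTVG.adjN (rect u v w z a b) i u = KTVG.adjN a i u := by
    rw [adjN_comm (rect u v w z a b) i u, adjN_comm a i u]
    exact adjN_congr (rect_a hD a b (Or.inl rfl) hiwz)
  have e2 : KTVG.adjN (rect u v w z a b) i v = KTVG.adjN a i v := by
    rw [adjN_comm (rect u v w z a b) i v, adjN_comm a i v]
    exact adjN_congr (rect_a hD a b (Or.inr rfl) hiwz)
  have e3 : ∑ x ∈ (Finset.univ.erase u).erase v, KTVG.adjN (rect u v w z a b) i x
      = ∑ x ∈ (Finset.univ.erase u).erase v, KTVG.adjN b i x := by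
    apply Finset.sum_congr rfl
    intro x hx
    rw [mem_erase2] at hx
    exact adjN_congr (rect_b a b hi (fun h => h.elim hx.1 hx.2))
  have e4 := pairsum_of_labP huv ha hG hab (j := i) hiu hiv
  have g2 := (labP_eq_iff w z b G).mp hbb
  have e5 : KTVG.adjN b i u = KTVG.adjN G i u := adjN_congr (g2 i u hiw hiz huw huz)
  have e6 : KTVG.adjN b i v = KTVG.adjN G i v := adjN_congr (g2 i v hiw hiz hvw hvz)
  have e7 := degree_eq_sum_adjN b i
  rw [sum_split2 huv] at e7
  rw [degree_eq_sum_adjN, sum_split2 huv, e1, e2, e3]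
  have := db i
  omega

omit hD hG ha hb hodd hab hbb in
/-- The rectangle graph lies in the `{u,v}`-fibre of `b`. -/
theorem rect_labP_left : KTVG.labP u v (rect u v w z a b) = KTVG.labP u v b := by
  rw [labP_eq_iff]
  intro x y hx1 hx2 hy1 hy2
  exact rect_b a b (fun h => h.elim hx1 hx2) (fun h => h.elim hy1 hy2)

omit hG ha hb hodd in
/-- The rectangle graph lies in the `{w,z}`-fibre of `a`. -/
theorem rect_labP_right : KTVG.labP w z (rect u v w z a b) = KTVG.labP w z a := by
  have g1 := (labP_eq_iff u v a G).mp hab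
  have g2 := (labP_eq_iff w z b G).mp hbb
  rw [labP_eq_iff]
  intro x y hx1 hx2 hy1 hy2
  by_cases hx : x = u ∨ x = v
  · exact rect_a hD a b hx (fun h => h.elim hy1 hy2)
  · by_cases hy : y = u ∨ y = v
    · rw [SimpleGraph.adj_comm, a.adj_comm]
      exact rect_a hD a b hy (fun h => h.elim hx1 hx2)
    · rw [rect_b a b hx hy, g2 x y hx1 hx2 hy1 hy2]
      exact (g1 x y (fun h => hx (Or.inl h)) (fun h => hx (Or.inr h))
        (fun h => hy (Or.inl h)) (fun h => hy (Or.inr h))).symm

end Corner

/-- Module M3b-i of the plan: the parity event is a union of fibres of the pair `{u,v}`,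
and on it the two pair heat baths commute. -/
theorem oddStmt (n : ℕ) (d : Fin n → ℕ) : KTVG.OddStmt n d := by
  intro u v w z hD
  have part1 : ∀ G ∈ KTVG.gOmega n d, ∀ G' ∈ KTVG.gOmega n d,
      KTVG.labP u v G = KTVG.labP u v G' →
      (KTVG.OddB u v w z G ↔ KTVG.OddB u v w z G') := by
    intro G hG G' hG' h
    unfold KTVG.OddB
    rw [yB_of_labP_left hD hG hG' h]
  have part1' : ∀ G ∈ KTVG.gOmega n d, ∀ G' ∈ KTVG.gOmega n d,
      KTVG.labP w z G = KTVG.labP w z G' →
      (KTVG.OddB u v w z G ↔ KTVG.OddB u v w z G') := by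
    intro G hG G' hG' h
    unfold KTVG.OddB
    rw [yB_of_labP_right hD hG hG' h]
  refine ⟨part1, ?_⟩
  intro f G hG hodd
  have h1 : ∀ x ∈ KTVG.gOmega n d, KTVG.OddB u v w z x → ∀ a ∈ KTVG.gOmega n d,
      ∀ b ∈ KTVG.gOmega n d, KTVG.labP u v a = KTVG.labP u v x →
      KTVG.labP w z b = KTVG.labP w z x →
      rect u v w z a b ∈ KTVG.gOmega n d ∧
        KTVG.labP u v (rect u v w z a b) = KTVG.labP u v b ∧
        KTVG.labP w z (rect u v w z a b) = KTVG.labP w z a := by
    intro x hx hox a ha b hb hab hbb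
    exact ⟨rect_mem hD hx ha hb hox hab hbb, rect_labP_left, rect_labP_right hD hab hbb⟩
  apply cexpL_comm_of_mix_on (KTVG.gOmega n d) (KTVG.labP u v) (KTVG.labP w z) (rect u v w z)
    (KTVG.OddB u v w z)
    (fun x hx y hy h hox => (part1 y hy x hx h).mpr hox)
    (fun x hx y hy h hox => (part1' y hy x hx h).mpr hox) h1 _ f G hG hodd
  intro x hx hox a ha b hb hab hbb
  have hoa : KTVG.OddB u v w z a := (part1 a ha x hx hab).mpr hox
  have hob : KTVG.OddB u v w z b := (part1' b hb x hx hbb).mpr hox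
  obtain ⟨pm, pl, pr⟩ := h1 x hx hox a ha b hb hab hbb
  constructor
  · -- `rect x (rect a b) = b`, by uniqueness
    obtain ⟨qm, ql, qr⟩ := h1 a ha hoa x hx (rect u v w z a b) pm hab.symm pr
    have hoq : KTVG.OddB u v w z (rect u v w z x (rect u v w z a b)) :=
      (part1' _ qm x hx qr).mpr hox
    exact eq_of_labP_labP hD qm hb hoq (ql.trans pl) (qr.trans hbb.symm)
  · -- `rect (rect a b) x = a`, by uniqueness
    obtain ⟨qm, ql, qr⟩ := h1 b hb hob (rect u v w z a b) pm x hx pl hbb.symm
    have hoq : KTVG.OddB u v w z (rect u v w z (rect u v w z a b) x) :=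
      (part1 _ qm x hx ql).mpr hox
    exact eq_of_labP_labP hD qm ha hoq (ql.trans hab.symm) (qr.trans pr)

end G23

end KTV
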